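import Vale.Agent.P097.H531.GW.Main
import Vale.Agent.P097.H348.G.Out
import Vale.Agent.P097.H275.G.D2

/-! # P097 / case [c], row A5.GROWTH: growth of `F`, `q` and their derivatives near the wall

For every `a > 0` the six bounds of `H348.G.out_all` hold on the strip. -/

set_option linter.all false

open Complex Metric Filter Topology Set
open scoped ComplexConjugate

namespace Vale.Agent.P097.GW

open Vale.Agent.P097 Vale.Agent.P097.TA Vale.Agent.P097.H202 Vale.Agent.P097.SC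
open Vale.Agent.P097.H456.Fct Vale.Agent.P097.CD Vale.Agent.P097.H557.DE

section
variable {κ Λ b : ℝ} {H Φ : ℂ → ℂ} {r₀ e₀ : ℝ} {α p : ℂ → ℂ → ℂ} {J F q Q : ℂ → ℂ}

theorem ev_pe (c : ℝ) (hc : 0 < c) (k : ℕ) : ∀ᶠ s : ℝ in atTop, s ^ k * Real.exp (-s) ≤ c :=
  (Real.tendsto_pow_mul_exp_neg_atTop_nhds_zero k).eventually_le_const hc

/-- the bound of `F'` at distance `4 / s ^ n` from the wall -/
theorem wall1 (E : CC.En κ Λ b H Φ r₀ e₀ α p J F q) (n : ℕ) (hn : 1 ≤ n) :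
    ∀ᶠ s : ℝ in atTop, ∀ x : ℂ, |x.im| ≤ b - 4 / s ^ n → ‖deriv F x‖ ≤ Real.exp (2 * s) := by
  obtain ⟨Q, B⟩ := CC.rowB E
  obtain ⟨e₁, he₁, C₁, hC₁, hP⟩ := H456.C.gr_rowP E B
  obtain ⟨CL, hCL, hL⟩ := rowL
  have hb := E.b0
  have hC₁0 : 0 < C₁ := by linarith
  have hCL0 : 0 < CL := by linarith
  filter_upwards [growth0 E n, ev_pe (1 / C₁) (by positivity) (6 * n),
    ev_pe (1 / CL) (by positivity) (4 * n), ev_pe e₁ he₁ 0, ev_pe 1 one_pos 0,
    ev_pe (b / 16) (by positivity) 0, eventually_ge_atTop (1 : ℝ), eventually_ge_atTop CL,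
    eventually_ge_atTop b, eventually_ge_atTop (4 / b)] with s h0 h1 h2 h3 h4 h5 s1 s2 s3 s4 x hx
  rw [pow_zero, one_mul] at h3 h4 h5
  have hs0 : 0 < s := by linarith
  set ρ := Real.exp (-s) with hρ
  have hρ0 : 0 < ρ := Real.exp_pos _
  set σ := s ^ n with hσ
  have hsσ : s ≤ σ := le_self_pow₀ s1 (by omega)
  have hσ0 : 0 < σ := by linarith
  have hσ1 : 1 ≤ σ := by linarith
  have hbσ : 4 ≤ b * σ := by
    rw [div_le_iff₀ hb] at s4
    nlinarith
  have h2σ : 2 / σ ≤ b / 2 := by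
    rw [div_le_iff₀ hσ0]; linarith
  have hyb : b - 2 / σ < b - 1 / σ := by
    have : 1 / σ < 2 / σ := by
      apply div_lt_div_of_pos_right (by norm_num) hσ0
    linarith
  obtain ⟨A, P, T⟩ := h0 (b - 2 / σ) (by linarith) hyb
  obtain ⟨θ, hPo, hLo⟩ := hP T h3 (by linarith)
  have hlog : Real.log (1 / ρ) ≤ σ := by
    rw [hρ, one_div, Real.log_inv, Real.log_exp, neg_neg]; exact hsσ
  have hCρ : C₁ * ρ ≤ (σ⁻¹) ^ 6 := by
    rw [inv_pow, ← one_div, le_div_iff₀ (by positivity)]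
    rw [le_div_iff₀ hC₁0] at h1
    have e : C₁ * ρ * σ ^ 6 = s ^ (6 * n) * ρ * C₁ := by
      rw [hσ, ← pow_mul, mul_comm n 6]; ring
    rw [e]; exact h1
  have hx' : |x.im| < b - 2 / σ - (σ⁻¹) ^ 4 := by
    have h6 : (σ⁻¹) ^ 4 ≤ 1 / σ := by
      rw [one_div]
      exact pow_le_of_le_one (by positivity) (inv_le_one_of_one_le₀ hσ1) (by norm_num)
    have h7 : 4 / σ = 2 / σ + 1 / σ + 1 / σ := by ring
    have h8 : 0 < 1 / σ := by positivity
    rw [h7] at hx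
    linarith
  have h9 := hL T.aA (fun t ht => (axC T E t ht (ht.trans_le (le_b T E))).1) hPo hLo hρ0 h4
    (by linarith) (s2.trans hsσ) hlog (by have := hsσ; linarith [div_pos two_pos hσ0]) hC₁ hCρ x hx'
  refine h9.trans ?_
  rw [div_le_iff₀ hρ0]
  rw [le_div_iff₀ hCL0] at h2
  have e1 : Real.exp (2 * s) * ρ = Real.exp s := by
    rw [hρ, ← Real.exp_add]; congr 1; ring
  rw [e1]
  have e2 : σ ^ 4 * ρ * CL ≤ 1 := by
    have : σ ^ 4 = s ^ (4 * n) := by rw [hσ, ← pow_mul, mul_comm n 4]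
    rw [this]; exact h2
  have e3 : ρ * Real.exp s = 1 := by rw [hρ, ← Real.exp_add]; simp
  calc CL * σ ^ 4 = (σ ^ 4 * ρ * CL) * Real.exp s := by
        have : (σ ^ 4 * ρ * CL) * Real.exp s = CL * σ ^ 4 * (ρ * Real.exp s) := by ring
        rw [this, e3, mul_one]
    _ ≤ 1 * Real.exp s := mul_le_mul_of_nonneg_right e2 (Real.exp_pos _).le
    _ = _ := one_mul _

/-- **G1** -/
theorem growthF (E : CC.En κ Λ b H Φ r₀ e₀ α p J F q) {a : ℝ} (ha : 0 < a) :
    ∃ C > 0, ∀ x ∈ Str b, ‖deriv F x‖ ≤ Real.exp (C * (b - |x.im|) ^ (-a)) := by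
  obtain ⟨Q, B⟩ := CC.rowB E
  have hb := E.b0
  set n : ℕ := ⌈1 / a⌉₊ with hn
  have hn0 : 0 < n := Nat.ceil_pos.2 (by positivity)
  have hna : ((n : ℝ))⁻¹ ≤ a := by
    rw [inv_le_comm₀ (by exact_mod_cast hn0) ha, ← one_div]
    exact Nat.le_ceil _
  obtain ⟨S, hS⟩ := eventually_atTop.1 (wall1 E n hn0)
  set S₁ := max S 1 with hS₁
  have hS1 : 1 ≤ S₁ := le_max_right _ _
  set d₀ := min 1 (4 / S₁ ^ n) with hd₀
  have hd₀0 : 0 < d₀ := lt_min one_pos (by positivity)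
  obtain ⟨M, hM0, hM⟩ := bdd_strip (P := 1) (β := b) (β' := b - d₀) one_pos (by linarith)
    (dgS B).continuousOn (by simpa using gpS B)
  obtain ⟨C, hC0, hC8, hC⟩ := H348.G.absorb (Real.rpow_pos_of_pos hb (-a)) M 8
  refine ⟨C, hC0, fun x hx => ?_⟩
  have hd : 0 < b - |x.im| := by linarith [mem_Str.1 hx]
  have hu := H348.G.sz_low ha hx
  set d := b - |x.im| with hdd
  set u := d ^ (-a) with hu'
  have hu0 : 0 < u := Real.rpow_pos_of_pos hd _
  rcases lt_or_ge d d₀ with h | h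
  · have hd1 : d ≤ 1 := h.le.trans (min_le_left _ _)
    have hd2 : d ≤ 4 / S₁ ^ n := h.le.trans (min_le_right _ _)
    set s := (4 / d) ^ ((n : ℝ)⁻¹) with hs
    have h4d : 0 < 4 / d := by positivity
    have hsn : s ^ n = 4 / d := by
      rw [hs, Real.rpow_inv_natCast_pow h4d.le hn0.ne']
    have hs0 : 0 ≤ s := Real.rpow_nonneg h4d.le _
    have hSs : S₁ ≤ s := by
      have h1 : S₁ ^ n ≤ s ^ n := by
        rw [hsn, le_div_iff₀ hd]
        rw [le_div_iff₀ (by positivity)] at hd2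
        linarith
      exact (pow_le_pow_iff_left₀ (by linarith) hs0 hn0.ne').1 h1
    have h1 := hS s ((le_max_left _ _).trans hSs) x (by
      have e : 4 / s ^ n = d := by rw [hsn]; field_simp
      rw [e]; linarith)
    refine h1.trans (Real.exp_le_exp.2 ?_)
    have h2 : s ≤ 4 * u := by
      have h3 : s = 4 ^ ((n : ℝ)⁻¹) * d⁻¹ ^ ((n : ℝ)⁻¹) := by
        rw [hs, div_eq_mul_inv, Real.mul_rpow (by norm_num) (by positivity)]
      have h4 : (4 : ℝ) ^ ((n : ℝ)⁻¹) ≤ 4 := by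
        calc (4 : ℝ) ^ ((n : ℝ)⁻¹) ≤ 4 ^ (1 : ℝ) := by
              apply Real.rpow_le_rpow_of_exponent_le (by norm_num)
              have : (1 : ℝ) ≤ n := by exact_mod_cast hn0
              exact inv_le_one_of_one_le₀ this
          _ = 4 := Real.rpow_one _
      have h5 : d⁻¹ ^ ((n : ℝ)⁻¹) ≤ u := by
        have h6 : u = d⁻¹ ^ a := by rw [hu', Real.rpow_neg hd.le, Real.inv_rpow hd.le]
        rw [h6]
        exact Real.rpow_le_rpow_of_exponent_le ((one_le_inv₀ hd).2 hd1) hna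
      rw [h3]
      exact mul_le_mul h4 h5 (by positivity) (by norm_num)
    nlinarith
  · have h1 := hM x (by linarith)
    refine h1.trans (le_trans ?_ (hC u hu))
    exact le_mul_of_one_le_right hM0 (Real.one_le_exp (by positivity))

/-- **G2** -/
theorem growthQ (E : CC.En κ Λ b H Φ r₀ e₀ α p J F q) (B : CC.Bs Λ b F q Q) {a : ℝ} (ha : 0 < a) :
    ∃ C > 0, ∀ x ∈ Str b, ‖Q x‖ ≤ Real.exp (C * (b - |x.im|) ^ (-a)) := by
  obtain ⟨C, hC0, hF⟩ := growthF E ha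
  obtain ⟨l, hl, hlow⟩ := lowS B
  have hb := E.b0
  set u₀ := b ^ (-a) with hu₀
  have hu₀0 : 0 < u₀ := Real.rpow_pos_of_pos hb _
  set K := C * 2 ^ a + (l + 1) / u₀ with hK
  have hK0 : 0 < K := by positivity
  set c := min (1 / 2) (1 / b) with hc
  have hc0 : 0 < c := lt_min (by norm_num) (by positivity)
  obtain ⟨C', hC', h'⟩ := H348.G.of_npow hb ha 6 (3 * 10 ^ 10 * K ^ 4 / c ^ 6)
  refine ⟨4 + C', by linarith, fun x hx => ?_⟩
  have hd : 0 < b - |x.im| := by linarith [mem_Str.1 hx]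
  have hu := H348.G.sz_low ha hx
  have h6 := h' x hx
  have hdb : b - |x.im| ≤ b := by linarith [abs_nonneg x.im]
  set d := b - |x.im| with hdd
  set u := d ^ (-a) with hu'
  have hu0 : 0 < u := Real.rpow_pos_of_pos hd _
  set R := min (d / 2) 1 with hR
  have hR0 : 0 < R := lt_min (by linarith) one_pos
  have hR1 : R ≤ d / 2 := min_le_left _ _
  have hcd : c * d ≤ R := by
    refine le_min ?_ ?_
    · calc c * d ≤ 1 / 2 * d := mul_le_mul_of_nonneg_right (min_le_left _ _) hd.le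
        _ = d / 2 := by ring
    · calc c * d ≤ 1 / b * d := mul_le_mul_of_nonneg_right (min_le_right _ _) hd.le
        _ = d / b := by ring
        _ ≤ 1 := (div_le_one hb).2 hdb
  have hA : C * (d / 2) ^ (-a) = C * 2 ^ a * u := by
    rw [Real.div_rpow hd.le (by norm_num), Real.rpow_neg (by norm_num : (0 : ℝ) ≤ 2), hu']
    field_simp
  have h1 := GR.D2.Q_bound (g := deriv F) (b := b) (l := l) (Q := Q) hb (dgS B) B.dQ B.gQ (gpS B) hlow hl
    (A := C * (d / 2) ^ (-a)) (Y := |x.im| + R) (R := R) (by positivity) hR0 (min_le_right _ _)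
    (by linarith) (fun z hz => by
      have hz' : z ∈ Str b := show |z.im| < b by linarith
      refine (hF z hz').trans (Real.exp_le_exp.2 (mul_le_mul_of_nonneg_left ?_ hC0.le))
      exact Real.rpow_le_rpow_of_nonpos (by linarith) (by linarith) (by linarith))
    (z := x) (by linarith)
  have h2 : C * (d / 2) ^ (-a) + l + 1 ≤ K * u := by
    rw [hA, hK, add_mul]
    have h3 : l + 1 ≤ (l + 1) / u₀ * u := by
      rw [div_mul_eq_mul_div, le_div_iff₀ hu₀0]
      exact mul_le_mul_of_nonneg_left hu (by linarith)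
    linarith
  have h3 : 0 ≤ C * (d / 2) ^ (-a) + l + 1 := by positivity
  have h4 : u ^ 4 ≤ Real.exp (4 * u) := by
    have h5 : u ≤ Real.exp u := by linarith [Real.add_one_le_exp u]
    calc u ^ 4 ≤ Real.exp u ^ 4 := pow_le_pow_left₀ hu0.le h5 4
      _ = Real.exp (4 * u) := by rw [← Real.exp_nat_mul]; norm_num
  calc ‖Q x‖ ≤ 3 * 10 ^ 10 * (C * (d / 2) ^ (-a) + l + 1) ^ 4 / R ^ 6 := h1
    _ ≤ 3 * 10 ^ 10 * (K * u) ^ 4 / (c * d) ^ 6 := by
        apply div_le_div₀ (by positivity) _ (by positivity)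
          (pow_le_pow_left₀ (by positivity) hcd 6)
        exact mul_le_mul_of_nonneg_left (pow_le_pow_left₀ h3 h2 4) (by norm_num)
    _ = u ^ 4 * (3 * 10 ^ 10 * K ^ 4 / c ^ 6 / d ^ 6) := by
        rw [mul_pow, mul_pow]; field_simp
    _ ≤ Real.exp (4 * u) * Real.exp (C' * u) :=
        mul_le_mul h4 h6 (by positivity) (Real.exp_pos _).le
    _ = _ := by rw [← Real.exp_add]; congr 1; ring

/-- **Row A5.GROWTH** -/
theorem growth (E : CC.En κ Λ b H Φ r₀ e₀ α p J F q) (B : CC.Bs Λ b F q Q) {a : ℝ} (ha : 0 < a) :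
    ∃ C > 0, ∀ x ∈ Str b,
      ‖F x - 2 * Real.pi * x‖ ≤ Real.exp (C * (b - |x.im|) ^ (-a)) ∧
      ‖deriv F x‖ ≤ Real.exp (C * (b - |x.im|) ^ (-a)) ∧
      ‖deriv (deriv F) x‖ ≤ Real.exp (C * (b - |x.im|) ^ (-a)) ∧
      ‖q x‖ ≤ Real.exp (Real.exp (C * (b - |x.im|) ^ (-a))) ∧
      ‖deriv q x‖ ≤ Real.exp (Real.exp (C * (b - |x.im|) ^ (-a))) ∧
      ‖deriv (deriv q) x‖ ≤ Real.exp (Real.exp (C * (b - |x.im|) ^ (-a))) := by
  obtain ⟨C₁, hC₁, h1⟩ := growthF E ha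
  obtain ⟨C₂, hC₂, h2⟩ := growthQ E B ha
  have hm : ∀ x ∈ Str b, 0 ≤ (b - |x.im|) ^ (-a) := fun x hx =>
    Real.rpow_nonneg (by linarith [mem_Str.1 hx]) _
  exact H348.G.out_all B (C := max C₁ C₂) ha
    (fun x hx => (h1 x hx).trans (Real.exp_le_exp.2
      (mul_le_mul_of_nonneg_right (le_max_left _ _) (hm x hx))))
    (fun x hx => (h2 x hx).trans (Real.exp_le_exp.2
      (mul_le_mul_of_nonneg_right (le_max_right _ _) (hm x hx))))

end

end Vale.Agent.P097.GW
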