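import Vale.Agent.P097.H531.GW.Fin
import Vale.Agent.P097.H557.DE.Place
import Vale.Agent.P097.H557.DE.Sel
import Vale.Agent.P097.H286.C.RowB
import Vale.Agent.P097.H456.C.GRow
import Vale.Agent.P097.H456.C.RowSp
import Vale.Agent.P097.H869.G.Lit
import Vale.Agent.P097.H967.RowLs
import Vale.Agent.P097.H710.RowS
import Vale.Agent.P097.H320.RowF
import Vale.Agent.P097.H320.RowTC

/-! # P097 / case [c], row A5.GROWTH: all heights `y < b - s ^ (-n)` are reached at width `exp (-s)` -/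

set_option linter.all false

open Complex Metric Filter Topology Set
open scoped ComplexConjugate

namespace Vale.Agent.P097.GW

open Vale.Agent.P097 Vale.Agent.P097.TA Vale.Agent.P097.H202 Vale.Agent.P097.SC
open Vale.Agent.P097.H456.Fct Vale.Agent.P097.CD Vale.Agent.P097.H557.DE

/-- Row L of the strip -/
theorem rowL : GR.RowL := by
  obtain ⟨C, hC, h⟩ := H967.RowLs.rowLs 4 le_rfl
  refine ⟨C, hC, ?_⟩
  intro F q y ρ C₁ s A P θ hA hA0 hPo hLo hρ hρ1 hy hCs hls hys hC₁ hCρ x hx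
  refine h ?_ hA hA0 hPo hLo hρ hρ1 hy hCs hls hys hC₁ hCρ x hx
  intro t ht
  have ht' : |t.im| < y := ht
  have h1 : AnalyticAt ℂ A (t, 0) := hA _ ⟨ht', by simpa using hρ⟩
  have h2 : AnalyticAt ℂ (fun t : ℂ => A (t, 0)) t :=
    AnalyticAt.comp (g := A) (f := fun t : ℂ => (t, (0 : ℂ))) h1
      (analyticAt_id.prod analyticAt_const)
  have h3 : F =ᶠ[𝓝 t] fun t : ℂ => A (t, 0) := by
    filter_upwards [(isOpen_lt (continuous_abs.comp continuous_im) continuous_const).mem_nhds ht']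
      with u hu
    exact (hA0 u hu).symm
  exact (h2.differentiableAt.congr_of_eventuallyEq h3).differentiableWithinAt

/-- Row C of the strip with `ε₁ ≤ 1` -/
theorem rowC_min (hC : GR.RowC) : ∃ ε₁ > 0, ε₁ ≤ 1 ∧ ∀ {Λ b : ℝ} {F q Q : ℂ → ℂ},
    CC.Bs Λ b F q Q →
    ∀ {c : ℂ} {D r v K : ℝ}, 0 < D → 0 < r → 1 ≤ v → 400 * (v + 60) ≤ K → K * r ≤ ε₁ * D →
    ball c (K * D) ⊆ Str b →
    (∀ z ∈ ball c (K * D), ‖deriv F z‖ * r * K ≤ ε₁ ∧ ‖Q z‖ * r * K * D ≤ ε₁) →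
    ∀ {A P θ : ℂ × ℂ → ℂ}, AnalyticOnNhd ℂ A (LoR c D r v K) → AnalyticOnNhd ℂ P (LoR c D r v K) →
    AnalyticOnNhd ℂ θ (LoR c D r v K) →
    (∀ t w : ℂ, (t, w) ∈ LoR c D r v K → ‖θ (t, w) - t‖ ≤ D) →
    (∀ t : ℂ, (t, (0 : ℂ)) ∈ LoR c D r v K → A (t, 0) = F t) →
    (∀ t w : ℂ, (t, w) ∈ LoR c D r v K → A (t, -w) = A (t, w) ∧ P (t, -w) = P (t, w) ∧
      θ (t, -w) = θ (t, w)) →
    (∀ t w : ℂ, (t + w / 2, w) ∈ LoR c D r v K → (t - w / 2, w) ∈ LoR c D r v K →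
      ‖θ (t + w / 2, w) - θ (t - w / 2, w) - w‖ ≤ ε₁ * ‖w‖ ∧
      A (t + w / 2, w) + A (t - w / 2, w) = 2 * F (θ (t, w)) ∧
      P (t + w / 2, w) + P (t - w / 2, w) =
        2 * q (θ (t, w)) * cos ((A (t + w / 2, w) - A (t - w / 2, w)) / 2) ∧
      deriv F (θ (t, w)) * (P (t + w / 2, w) - P (t - w / 2, w)) =
        2 * deriv q (θ (t, w)) * sin ((A (t + w / 2, w) - A (t - w / 2, w)) / 2)) →
    ∃ A' P' : ℂ × ℂ → ℂ, AnalyticOnNhd ℂ A' (UpR c D r v) ∧ AnalyticOnNhd ℂ P' (UpR c D r v) ∧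
      ∀ u ∈ LoR c D r v K ∩ UpR c D r v, A' u = A u ∧ P' u = P u := by
  obtain ⟨ε, hε, h⟩ := hC
  refine ⟨min ε 1, lt_min hε one_pos, min_le_right _ _, ?_⟩
  intro Λ b F q Q B c D r v K h1 h2 h3 h4 h5 hs h6 A P θ h7 h8 h9 h10 h11 h12 h13
  have hm : min ε 1 ≤ ε := min_le_left _ _
  exact h B h1 h2 h3 h4 (h5.trans (mul_le_mul_of_nonneg_right hm h1.le)) hs
    (fun z hz => ⟨(h6 z hz).1.trans hm, (h6 z hz).2.trans hm⟩) h7 h8 h9 h10 h11 h12
    (fun t w a b => ⟨(h13 t w a b).1.trans (mul_le_mul_of_nonneg_right hm (norm_nonneg _)),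
      (h13 t w a b).2⟩)

section
variable {κ Λ b : ℝ} {H Φ : ℂ → ℂ} {r₀ e₀ : ℝ} {α p : ℂ → ℂ → ℂ} {J F q : ℂ → ℂ}

/-- there are no windows at arbitrarily large `s` -/
theorem noWin (E : CC.En κ Λ b H Φ r₀ e₀ α p J F q) {s₀ : ℝ} (P : HPC α p b s₀) (m : ℕ) :
    ¬ ∀ S : ℝ, HasWin (HY α p) s₀ m S := by
  intro hwin
  obtain ⟨Q, B⟩ := CC.rowB E
  obtain ⟨e₁, he₁, C₁, hC₁, hP'⟩ := H456.C.gr_rowP E B
  obtain ⟨CS, hCS, hS'⟩ := H710.rowS
  obtain ⟨CL, hCL, hL'⟩ := rowL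
  obtain ⟨ε₁, hε0, hε1, hC'⟩ := rowC_min H869.G.rowC
  obtain ⟨e₂, he₂, hSp'⟩ := H456.C.gr_rowSp E B
  obtain ⟨l', hl, hlow⟩ := lowS B
  have hb0 := E.b0
  -- all sizes from some `S` on
  obtain ⟨S, hS₀⟩ := eventually_atTop.1 (ev_SzS C₁ CL CS l' (m + 2) (by omega) he₁ he₂ hε0 hb0)
  obtain ⟨s, D, hsS, hs1, hD1, hs0, hτ⟩ := hwin (max S 1)
  obtain ⟨R, Z⟩ := hS₀ s ((le_max_left _ _).trans hsS)
  set σ := (2 * s) ^ (m + 2) with hσ
  have hs10 := Z.s10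
  have hspos : 0 < s := by linarith
  have hL3 := Z.L3
  have hD0 := Z.D0 hD1
  set y := HY α p s with hy
  have hs0' : s₀ ≤ s := by linarith
  -- lower end
  have hy1 : b / 2 ≤ y - D * Real.log s ^ 3 := by
    have h1 := (hτ (-Real.log s ^ 3) (by rw [abs_neg, abs_of_pos (by linarith)])).2
    have h2 := P.one (s + -Real.log s ^ 3) (by linarith)
    have e1 : D * -Real.log s ^ 3 = -(D * Real.log s ^ 3) := by ring
    rw [e1] at h1
    linarith
  -- upper end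
  have hy2 : y + D * (Real.log s ^ 3 - 1) ≤ b := by
    have h1 := (hτ (Real.log s ^ 3) (by rw [abs_of_pos (by linarith)])).1
    have h2 := P.leb (s + Real.log s ^ 3) (by linarith)
    linarith
  have hD2 : D ≤ b := by
    have h1 : D * 1 ≤ D * (Real.log s ^ 3 - 1) := mul_le_mul_of_nonneg_left (by linarith) hD0.le
    have h2 : 0 ≤ D * Real.log s ^ 3 := by positivity
    linarith
  set v := 60 + 4 * Real.log σ with hv
  set K₁ := 400 * (v + 60) with hK₁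
  have hK₁' : K₁ = 400 * (60 + 4 * Real.log σ + 60) := by rw [hK₁, hv]
  have N := Z.nu (D := D) (y := y) hC₁ hCL hCS hl hb0 hD1 hy1 hy2
  have N2 := Z.nu2 (D := D) (y := y) hCL hCS hl hb0 hε0 hε1 hD1 hD2 hK₁'
  have N3 := Z.nu3 (D := D) (y := y) hC₁ hCL hCS hl hb0 hε0 hD1 hv (le_refl K₁)
  have W : Win α p y D (Real.exp (-s)) (Real.log s ^ 3 / 2) := by
    intro τ y' hτ1 hy' hyy
    have h1 := (hτ τ (hτ1.trans (by linarith))).1
    have h2 := (abs_le.1 hτ1).1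
    have h3 := P.lt (s + τ) (by linarith) y' hy' (by linarith)
    have e1 : Real.exp (-s) * Real.exp (-τ) = Real.exp (-(s + τ)) := by
      rw [← Real.exp_add]; congr 1; ring
    rw [e1]; exact h3
  have hax : ∀ {y ρ : ℝ} {A P : ℂ × ℂ → ℂ}, CD.Tu α p y ρ A P → y ≤ b ∧
      ∀ t : ℂ, |t.im| < y → A (t, 0) = F t ∧ P (t, 0) = q t := fun T =>
    ⟨le_b T E, fun t ht => axC T E t ht (ht.trans_le (le_b T E))⟩
  have hg : ∀ {τ : ℝ} {z : ℂ}, |τ| ≤ Real.log s ^ 3 / 2 + 4 → |z.im| ≤ y + D * (τ - 1) - D / 2 →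
      ‖deriv F z‖ ≤ CL * σ ^ 4 / (Real.exp (-s) * Real.exp (-τ)) :=
    fun h1 h2 => g_boundS hax hP' hL' N W h1 h2
  obtain ⟨x₀, hx₀⟩ := placeS B hl hlow hCL N N2 hg
  -- the second tube
  have hlog := log10
  have hl10 : 0 < Real.log 10 := Real.log_pos (by norm_num)
  obtain ⟨A2, P2, T2⟩ := W (-Real.log 10) (y - 7 / 2 * D)
    (by rw [abs_neg, abs_of_pos hl10]; linarith)
    (by
      have h1 : D * (7 / 2) ≤ D * Real.log s ^ 3 := mul_le_mul_of_nonneg_left (by linarith) hD0.le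
      linarith)
    (by nlinarith)
  rw [neg_neg, Real.exp_log (by norm_num : (0 : ℝ) < 10), mul_comm (Real.exp (-s)) 10] at T2
  obtain ⟨A', P', a1, a2, a3⟩ := climb_winC E B hP' hS' (hC' B) hCS N N2 N3 W hx₀ T2
  have hr0 : 0 < Real.exp (-s) := Real.exp_pos _
  have hrD : 72 * Real.exp (-s) < D := by
    have h1 := N.h1d
    have h2 : Real.exp (-s) * (1 + (Real.log s ^ 3 / 2 + 4)) ≤
        Real.exp (-s) * Real.exp (Real.log s ^ 3 / 2 + 4) :=
      mul_le_mul_of_nonneg_left (by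
        have := Real.add_one_le_exp (Real.log s ^ 3 / 2 + 4); linarith) hr0.le
    have h3 : Real.exp (-s) * 15 ≤ Real.exp (-s) * (1 + (Real.log s ^ 3 / 2 + 4)) :=
      mul_le_mul_of_nonneg_left (by linarith) hr0.le
    linarith
  have hfin := ext_winC E H320.RF.rowF H320.TCs.rowTC hSp' (v := v) (y := y) (D := D)
    (r := Real.exp (-s)) hD0 hr0
    N3.v60 (by
      have h1 := N.h2
      have h2 := N3.vK
      have h3 : D * (v + 2) ≤ D * (Real.log s ^ 3 / 2 + 6) :=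
        mul_le_mul_of_nonneg_left (by linarith) hD0.le
      linarith)
    hrD
    (by
      have h3 : D * 3 ≤ D * (Real.log s ^ 3 - 1) :=
        mul_le_mul_of_nonneg_left (by linarith) hD0.le
      linarith)
    N3.re T2 a1 a2 a3
  have hle := P.le s (y + D / 5) (2 * Real.exp (-s)) (by linarith [mul_pos hD0 (by linarith : 0 < Real.log s ^ 3)])
    (by linarith) hfin
  rw [← hy] at hle
  linarith

/-- **G0**: the lines are analytic on `|Im t| < b - s ^ (-n)`, `|w| < exp (-s)` for large `s` -/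
theorem growth0 (E : CC.En κ Λ b H Φ r₀ e₀ α p J F q) (n : ℕ) :
    ∀ᶠ s : ℝ in atTop, ∀ y : ℝ, 0 < y → y < b - 1 / s ^ n → Ext α p y (Real.exp (-s)) := by
  obtain ⟨s₀, P⟩ := heightsC E
  have h1 := (selC (n + 1) P.conc P.mono P.lim).resolve_left (noWin E P (n + 1))
  filter_upwards [h1, eventually_ge_atTop s₀, eventually_gt_atTop (2 : ℝ)] with s h2 h3 h4 y hy hyb
  refine P.lt s h3 y hy ?_
  have h5 : 2 / s ^ (n + 1 + 1) ≤ 1 / s ^ n := by
    rw [div_le_div_iff₀ (by positivity) (by positivity)]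
    have e : 1 * s ^ (n + 1 + 1) = s ^ n * (s * s) := by ring
    rw [e, mul_comm (2 : ℝ)]
    exact mul_le_mul_of_nonneg_left (by nlinarith) (by positivity)
  linarith

end

end Vale.Agent.P097.GW
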