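import Vale.Agent.P097.H531.CD.Height
import Vale.Agent.P097.H710.RowY1
import Vale.Agent.P097.H128.Sector.Top3
import Vale.Agent.P097.H275.G.Defs

/-! # P097 / case [c], row A5.GROWTH: axis, `y ≤ b`, the height function of the strip -/

set_option linter.all false

open Complex Metric Filter Topology Set
open scoped ComplexConjugate

namespace Vale.Agent.P097.GW

open Vale.Agent.P097 Vale.Agent.P097.TA Vale.Agent.P097.H202 Vale.Agent.P097.SC
open Vale.Agent.P097.H456.Fct Vale.Agent.P097.CD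

section
variable {κ Λ b : ℝ} {H Φ : ℂ → ℂ} {r e : ℝ} {α p : ℂ → ℂ → ℂ} {J F q Q : ℂ → ℂ}
variable {y ρ : ℝ} {A P : ℂ × ℂ → ℂ}

/-- the axis `w = 0` -/
theorem axC (h : Tu α p y ρ A P) (E : CC.En κ Λ b H Φ r e α p J F q) :
    ∀ t : ℂ, |t.im| < y → |t.im| < b → A (t, 0) = F t ∧ P (t, 0) = q t := by
  have L := E.ctx.ln
  have hslice : ∀ {f : ℂ × ℂ → ℂ}, AnalyticOnNhd ℂ f (Tb y ρ) →
      AnalyticOnNhd ℂ (fun t : ℂ => f (t, 0)) (Str y) := by
    intro f hf t ht
    have h1 : AnalyticAt ℂ f (t, 0) := hf _ ⟨ht, by simpa using h.ρ0⟩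
    exact AnalyticAt.comp (g := f) (f := fun t : ℂ => (t, (0 : ℂ))) h1
      (analyticAt_id.prod analyticAt_const)
  have s1 : Str (min y b) ⊆ Str y := fun z hz => by
    have hz' : |z.im| < min y b := hz
    exact show |z.im| < y from hz'.trans_le (min_le_left _ _)
  have s2 : Str (min y b) ⊆ Str b := fun z hz => by
    have hz' : |z.im| < min y b := hz
    exact show |z.im| < b from hz'.trans_le (min_le_right _ _)
  have hconn := (convex_Str (min y b)).isPreconnected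
  have h0m : ((0 : ℝ) : ℂ) ∈ Str (min y b) := by
    show |(((0 : ℝ) : ℂ)).im| < min y b
    simpa using ⟨h.y0, E.b0⟩
  have hx : ∀ x : ℝ, A ((x : ℂ), 0) = F x ∧ P ((x : ℂ), 0) = q x := by
    intro x
    have h1 := (h.eq x).self_of_nhds
    have hr := L.hr
    have h2 : |(x : ℂ).im| < r := by simpa using hr
    rw [h1.1, h1.2]
    simp only
    rw [L.αzero _ h2, L.pzero _ h2, (E.re x).1, (E.re x).2]
    exact ⟨rfl, rfl⟩
  have hseq : Tendsto (fun n : ℕ => (((1 : ℝ) / (n + 1) : ℝ) : ℂ)) atTop (𝓝[≠] ((0 : ℝ) : ℂ)) := by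
    refine tendsto_nhdsWithin_iff.2 ⟨?_, Eventually.of_forall fun n => ?_⟩
    · exact (continuous_ofReal.tendsto 0).comp tendsto_one_div_add_atTop_nhds_zero_nat
    · show (((1 : ℝ) / (n + 1) : ℝ) : ℂ) ≠ ((0 : ℝ) : ℂ)
      intro hh
      have h2 := ofReal_injective hh
      have h3 : (0 : ℝ) < 1 / ((n : ℝ) + 1) := by positivity
      linarith
  have oS := isOpen_Str b
  have k1 : EqOn (fun t : ℂ => A (t, 0)) F (Str (min y b)) :=
    ((hslice h.aA).mono s1).eqOn_of_preconnected_of_frequently_eq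
      (fun z hz => E.dF.analyticAt (oS.mem_nhds (s2 hz))) hconn h0m
      (hseq.frequently (Eventually.of_forall fun n => (hx _).1).frequently)
  have k2 : EqOn (fun t : ℂ => P (t, 0)) q (Str (min y b)) :=
    ((hslice h.aP).mono s1).eqOn_of_preconnected_of_frequently_eq
      (fun z hz => E.dq.analyticAt (oS.mem_nhds (s2 hz))) hconn h0m
      (hseq.frequently (Eventually.of_forall fun n => (hx _).2).frequently)
  exact fun t ht htb => ⟨k1 (show |t.im| < min y b from lt_min ht htb),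
    k2 (show |t.im| < min y b from lt_min ht htb)⟩

/-- heights are at most `b` -/
theorem le_b (h : Tu α p y ρ A P) (E : CC.En κ Λ b H Φ r e α p J F q) : y ≤ b := by
  by_contra hc
  push Not at hc
  have hb := E.b0
  refine E.nat ⟨0, min (y - b) b, fun t => exp (I * A (t, 0)), fun t => P (t, 0),
    lt_min (by linarith) hb, ?_, ?_, ?_⟩
  · intro t ht
    have h1 : AnalyticAt ℂ A (t, 0) := h.aA _ ⟨?_, by simpa using h.ρ0⟩
    · have h2 : AnalyticAt ℂ (fun t : ℂ => A (t, 0)) t :=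
        AnalyticAt.comp (g := A) (f := fun t : ℂ => (t, (0 : ℂ))) h1
          (analyticAt_id.prod analyticAt_const)
      exact ((analyticAt_const.mul h2).cexp).meromorphicAt
    · have h3 := abs_im_le_norm (t - (((0 : ℝ) : ℂ) + b * I))
      rw [mem_ball_iff_norm] at ht
      have h4 : (t - (((0 : ℝ) : ℂ) + b * I)).im = t.im - b := by simp
      rw [h4] at h3
      have h5 := abs_lt.1 (h3.trans_lt ht)
      have h6 := min_le_left (y - b) b
      have h7 := min_le_right (y - b) b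
      exact abs_lt.2 ⟨by simp only; linarith [h5.1], by simp only; linarith [h5.2]⟩
  · intro t ht
    have h1 : AnalyticAt ℂ P (t, 0) := h.aP _ ⟨?_, by simpa using h.ρ0⟩
    · have h2 : AnalyticAt ℂ (fun t : ℂ => P (t, 0)) t :=
        AnalyticAt.comp (g := P) (f := fun t : ℂ => (t, (0 : ℂ))) h1
          (analyticAt_id.prod analyticAt_const)
      exact h2.meromorphicAt
    · have h3 := abs_im_le_norm (t - (((0 : ℝ) : ℂ) + b * I))
      rw [mem_ball_iff_norm] at ht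
      have h4 : (t - (((0 : ℝ) : ℂ) + b * I)).im = t.im - b := by simp
      rw [h4] at h3
      have h5 := abs_lt.1 (h3.trans_lt ht)
      have h6 := min_le_left (y - b) b
      have h7 := min_le_right (y - b) b
      exact abs_lt.2 ⟨by simp only; linarith [h5.1], by simp only; linarith [h5.2]⟩
  · intro z hz hzb
    have h3 := abs_im_le_norm (z - (((0 : ℝ) : ℂ) + b * I))
    rw [mem_ball_iff_norm] at hz
    have h4 : (z - (((0 : ℝ) : ℂ) + b * I)).im = z.im - b := by simp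
    rw [h4] at h3
    have h5 := abs_lt.1 (h3.trans_lt hz)
    have h6 := min_le_left (y - b) b
    have h7 := min_le_right (y - b) b
    have h8 : |z.im| < b := abs_lt.2 ⟨by linarith [h5.1], hzb⟩
    have h9 := axC h E z (h8.trans hc) h8
    exact ⟨by simp only [h9.1], by simp only [h9.2]⟩

/-- every height below `b` is reached -/
theorem y0C (E : CC.En κ Λ b H Φ r e α p J F q) {y : ℝ} (hy : 0 < y) (hyb : y < b) :
    ∃ ρ > 0, Ext α p y ρ := by
  have hb := E.b0
  set b' := (y + b) / 2 with hb'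
  set ρ := min (1 / 4) ((b - y) / 2) with hρ
  have hρ0 : 0 < ρ := lt_min (by norm_num) (by linarith)
  have hρ1 : ρ ≤ (b - y) / 2 := min_le_right _ _
  have hsubD : Str b' ∪ ball (((0 : ℝ) : ℂ) + b' * I) ρ ⊆ Str b := by
    rintro z (hz | hz)
    · have hz' : |z.im| < b' := hz
      show |z.im| < b
      rw [hb'] at hz'; linarith
    · have h3 := abs_im_le_norm (z - (((0 : ℝ) : ℂ) + b' * I))
      rw [mem_ball_iff_norm] at hz
      have h4 : (z - (((0 : ℝ) : ℂ) + b' * I)).im = z.im - b' := by simp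
      rw [h4] at h3
      have h5 := abs_lt.1 (h3.trans_lt hz)
      have h6 := h5.1
      have h7 := h5.2
      have h8 : b' = (y + b) / 2 := hb'
      show |z.im| < b
      exact abs_lt.2 ⟨by linarith, by linarith⟩
  obtain ⟨αh, ph, h1, h2, h3⟩ := SC.secE E.ctx (a := 0) (b := b') (ρ := ρ) (Φb := F) (qb := q)
    (by rw [hb']; linarith) hρ0 (min_le_left _ _) (E.dF.mono hsubD) (E.dq.mono hsubD) E.re
  obtain ⟨r₁, hr₁, a1, a2⟩ := h1 (b' - y) (by rw [hb']; linarith) (by linarith)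
  have hsub : Tb y r₁ ⊆ Om 0 b' (ρ / 2) (b' - y) ×ˢ ball (0 : ℂ) r₁ := by
    intro u hu
    refine ⟨Or.inl ?_, by simpa using hu.2⟩
    show |u.1.im| < b' - (b' - y)
    have := hu.1
    linarith
  refine ⟨r₁, hr₁, αh, ph, hy, hr₁, a1.mono hsub, a2.mono hsub, fun t => ?_⟩
  filter_upwards [(h2 t).1, (h2 t).2] with u a b
  exact ⟨a, b⟩

/-- row Y1 in the strip -/
theorem y1C (E : CC.En κ Λ b H Φ r e α p J F q) {y₁ ρ₁ y₂ ρ₂ m y ρ : ℝ} (h1 : Ext α p y₁ ρ₁)
    (h2 : Ext α p y₂ ρ₂) (hm0 : 0 ≤ m) (hm1 : m ≤ 1) (hy : 0 < y)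
    (hym : y < (1 - m) * y₁ + m * y₂) (hρ : 0 < ρ)
    (hρm : Real.log ρ < (1 - m) * Real.log ρ₁ + m * Real.log ρ₂) : Ext α p y ρ := by
  rcases le_total y₁ y₂ with h | h
  · exact H710.rowY1_aux E.ctx.ln h1 h2 hm0 hm1 hy hym hρ hρm h
  · refine H710.rowY1_aux E.ctx.ln h2 h1 (m := 1 - m) (by linarith) (by linarith) hy ?_ hρ ?_ h
    · linarith
    · linarith

theorem HS_bddC (E : CC.En κ Λ b H Φ r e α p J F q) (s : ℝ) : BddAbove (HS α p s) := by
  refine ⟨b, ?_⟩
  rintro y ⟨hy, ρ, hρ, A, P, T⟩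
  exact le_b T E

theorem HS_convC (E : CC.En κ Λ b H Φ r e α p J F q) {s₁ s₂ a c : ℝ} (ha : 0 ≤ a)
    (hb : 0 ≤ c) (hab : a + c = 1) {y₁ y₂ y : ℝ} (h1 : y₁ ∈ HS α p s₁) (h2 : y₂ ∈ HS α p s₂)
    (hy : 0 < y) (hyy : y < a * y₁ + c * y₂) : y ∈ HS α p (a * s₁ + c * s₂) := by
  obtain ⟨hy₁, ρ₁, hρ₁, he₁⟩ := h1
  obtain ⟨hy₂, ρ₂, hρ₂, he₂⟩ := h2
  have l1 : -s₁ < Real.log ρ₁ := by
    rw [Real.lt_log_iff_exp_lt ((Real.exp_pos _).trans hρ₁)]; exact hρ₁
  have l2 : -s₂ < Real.log ρ₂ := by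
    rw [Real.lt_log_iff_exp_lt ((Real.exp_pos _).trans hρ₂)]; exact hρ₂
  have l3 : -(a * s₁ + c * s₂) < a * Real.log ρ₁ + c * Real.log ρ₂ := by
    rcases ha.eq_or_lt with h | h
    · have hb1 : c = 1 := by linarith
      subst h; subst hb1; linarith
    · nlinarith [mul_lt_mul_of_pos_left l1 h, mul_le_mul_of_nonneg_left l2.le hb]
  obtain ⟨x, hx1, hx2⟩ := exists_between l3
  have ha' : 1 - c = a := by linarith
  refine ⟨hy, Real.exp x, Real.exp_lt_exp.2 hx1, y1C E he₁ he₂ hb (by linarith) hy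
    (by rw [ha']; exact hyy) (Real.exp_pos _) ?_⟩
  rw [Real.log_exp, ha']
  exact hx2

/-- properties of the height function of the strip -/
structure HPC (α p : ℂ → ℂ → ℂ) (b s₀ : ℝ) : Prop where
  conc : ConcaveOn ℝ (Ici s₀) (HY α p)
  mono : MonotoneOn (HY α p) (Ici s₀)
  lim : Tendsto (HY α p) atTop (𝓝 b)
  leb : ∀ s, s₀ ≤ s → HY α p s ≤ b
  one : ∀ s, s₀ ≤ s → b / 2 ≤ HY α p s
  lt : ∀ s, s₀ ≤ s → ∀ y, 0 < y → y < HY α p s → Ext α p y (Real.exp (-s))
  le : ∀ s y ρ, 0 < y → Real.exp (-s) < ρ → Ext α p y ρ → y ≤ HY α p s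

theorem heightsC (E : CC.En κ Λ b H Φ r e α p J F q) : ∃ s₀, HPC α p b s₀ := by
  have hb0 := E.b0
  obtain ⟨ρ₀, hρ₀, he₀⟩ := y0C E (y := b / 2) (by linarith) (by linarith)
  have hle : ∀ s y ρ, 0 < y → Real.exp (-s) < ρ → Ext α p y ρ → y ≤ HY α p s :=
    fun s y ρ hy hρ he => le_csSup (HS_bddC E s) ⟨hy, ρ, hρ, he⟩
  have hone' : ∀ s, 1 - Real.log ρ₀ ≤ s → (b / 2 : ℝ) ∈ HS α p s := by
    intro s hs
    refine ⟨by linarith, ρ₀, ?_, he₀⟩
    rw [gt_iff_lt, ← Real.lt_log_iff_exp_lt hρ₀]; linarith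
  have hnon : ∀ s, 1 - Real.log ρ₀ ≤ s → (HS α p s).Nonempty := fun s hs => ⟨b / 2, hone' s hs⟩
  have hleb : ∀ s, 1 - Real.log ρ₀ ≤ s → HY α p s ≤ b := by
    intro s hs
    refine csSup_le (hnon s hs) ?_
    rintro y ⟨hy, ρ, hρ, A, P, T⟩
    exact le_b T E
  refine ⟨1 - Real.log ρ₀, ?_, ?_, ?_, hleb, ?_, ?_, hle⟩
  · refine ⟨convex_Ici _, ?_⟩
    intro s₁ hs₁ s₂ hs₂ a c ha hb hab
    simp only [smul_eq_mul]
    have hs : 1 - Real.log ρ₀ ≤ a * s₁ + c * s₂ := by
      have h1 := mul_le_mul_of_nonneg_left (show 1 - Real.log ρ₀ ≤ s₁ from hs₁) ha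
      have h2 := mul_le_mul_of_nonneg_left (show 1 - Real.log ρ₀ ≤ s₂ from hs₂) hb
      have h3 : a * (1 - Real.log ρ₀) + c * (1 - Real.log ρ₀) = 1 - Real.log ρ₀ := by
        rw [← add_mul, hab, one_mul]
      linarith
    -- points first
    have key : ∀ y₁ ∈ HS α p s₁, ∀ y₂ ∈ HS α p s₂, a * y₁ + c * y₂ ≤ HY α p (a * s₁ + c * s₂) := by
      intro y₁ h1 y₂ h2
      have hpos : 0 < a * y₁ + c * y₂ := by
        rcases ha.eq_or_lt with h | h
        · have hb1 : c = 1 := by linarith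
          subst h; subst hb1; have := h2.1; linarith
        · have := mul_pos h h1.1
          have := mul_nonneg hb h2.1.le
          linarith
      apply le_of_forall_lt
      intro y' hy'
      obtain ⟨y, hy1, hy2⟩ := exists_between (max_lt hy' hpos)
      have hy3 : y' < y := (le_max_left _ _).trans_lt hy1
      have hy4 : 0 < y := (le_max_right _ _).trans_lt hy1
      exact lt_of_lt_of_le hy3 (le_csSup (HS_bddC E _) (HS_convC E ha hb hab h1 h2 hy4 hy2))
    have h1 : ∀ y₂ ∈ HS α p s₂, a * HY α p s₁ + c * y₂ ≤ HY α p (a * s₁ + c * s₂) := by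
      intro y₂ h2
      rcases ha.eq_or_lt with h | h
      · obtain ⟨y₁, h3⟩ := hnon s₁ hs₁
        have := key y₁ h3 y₂ h2
        subst h
        simpa using this
      · have h3 : HY α p s₁ ≤ (HY α p (a * s₁ + c * s₂) - c * y₂) / a := by
          apply csSup_le (hnon s₁ hs₁)
          intro y₁ h3
          rw [le_div_iff₀ h]
          have := key y₁ h3 y₂ h2
          linarith
        rw [le_div_iff₀ h] at h3
        linarith
    rcases hb.eq_or_lt with h | h
    · obtain ⟨y₂, h3⟩ := hnon s₂ hs₂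
      have := h1 y₂ h3
      subst h
      simpa using this
    · have h3 : HY α p s₂ ≤ (HY α p (a * s₁ + c * s₂) - a * HY α p s₁) / c := by
        apply csSup_le (hnon s₂ hs₂)
        intro y₂ h3
        rw [le_div_iff₀ h]
        have := h1 y₂ h3
        linarith
      rw [le_div_iff₀ h] at h3
      linarith
  · intro s₁ hs₁ s₂ hs₂ h
    exact csSup_le_csSup (HS_bddC E s₂) (hnon s₁ hs₁) (HS_mono h)
  · refine tendsto_order.2 ⟨fun M hM => ?_, fun M hM => ?_⟩
    · obtain ⟨y, hy1, hy2⟩ := exists_between (max_lt hM hb0)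
      obtain ⟨ρ, hρ, he⟩ := y0C E ((le_max_right _ _).trans_lt hy1) hy2
      filter_upwards [eventually_gt_atTop (-Real.log ρ)] with s hs
      have h1 : Real.exp (-s) < ρ := by
        rw [← Real.lt_log_iff_exp_lt hρ]; linarith
      exact ((le_max_left M 0).trans_lt hy1).trans_le
        (hle s _ ρ ((le_max_right _ _).trans_lt hy1) h1 he)
    · filter_upwards [eventually_ge_atTop (1 - Real.log ρ₀)] with s hs
      exact (hleb s hs).trans_lt hM
  · intro s hs
    exact le_csSup (HS_bddC E s) (hone' s hs)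
  · intro s hs y hy hys
    obtain ⟨y', ⟨hy', ρ, hρ, he⟩, h2⟩ := exists_lt_of_lt_csSup (hnon s hs) hys
    exact he.mono hy (Real.exp_pos _) h2.le hρ.le

end

end Vale.Agent.P097.GW
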