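import Vale.Agent.P097.H531.CD.Fin
import Vale.Agent.P097.H531.GW.Height
import Vale.Agent.P097.H557.DE.Sizes

/-! # P097 / case [c], row A5.GROWTH: the window theorem in the strip (port of `H531/CD/Fin.lean`) -/

set_option linter.all false

open Complex Metric Filter Topology Set
open scoped ComplexConjugate

namespace Vale.Agent.P097.GW

open Vale.Agent.P097 Vale.Agent.P097.TA Vale.Agent.P097.H202 Vale.Agent.P097.SC
open Vale.Agent.P097.H456.Fct Vale.Agent.P097.CD Vale.Agent.P097.H557.DE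

section
variable {κ Λ b : ℝ} {H Φ : ℂ → ℂ} {r₀ e₀ : ℝ} {α p : ℂ → ℂ → ℂ} {J F q Q : ℂ → ℂ}
variable {C₁ e₁ e₂ CL CS y D r K σ l K₁ ε₁ v : ℝ}

/-- steps (5), (6): the lines over `x₀` at the labels of the double sector -/
theorem climb_winC (E : CC.En κ Λ b H Φ r₀ e₀ α p J F q) (B : CC.Bs Λ b F q Q)
    (hP : ∀ {y ρ : ℝ} {A P : ℂ × ℂ → ℂ}, Tu α p y ρ A P → ρ ≤ e₁ → 2 * ρ < y →
      ∃ θ, Po F q y ρ A P θ ∧ Lo1 ρ C₁ θ)
    (hS : ∀ {F q : ℂ → ℂ} {y ρ C₁ s : ℝ} {A P θ : ℂ × ℂ → ℂ},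
      Po F q y ρ A P θ → Lo1 ρ C₁ θ → 0 < ρ → ρ ≤ 1 → 4 * ρ < y → 1 ≤ s →
      Real.log (1 / ρ) ≤ s → y ≤ s → 1 ≤ C₁ → ∀ t w : ℂ, |t.im| < y - 3 * ρ →
      ‖w‖ ≤ ρ / (CS * s) →
      ‖θ (t + w / 2, w) - θ (t - w / 2, w) - w‖ ≤ CS * s * (‖w‖ / ρ) ^ 2 * ‖w‖ ∧
      ‖θ (t, w) - t‖ ≤ CS * s ^ 2 * (‖w‖ / ρ) ^ 2 + CS * C₁ * ‖w‖)
    (hC : ∀ {c : ℂ} {D r v K : ℝ}, 0 < D → 0 < r → 1 ≤ v → 400 * (v + 60) ≤ K →
      K * r ≤ ε₁ * D → ball c (K * D) ⊆ Str b →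
      (∀ z ∈ ball c (K * D), ‖deriv F z‖ * r * K ≤ ε₁ ∧ ‖Q z‖ * r * K * D ≤ ε₁) →
      ∀ {A P θ : ℂ × ℂ → ℂ}, AnalyticOnNhd ℂ A (LoR c D r v K) →
      AnalyticOnNhd ℂ P (LoR c D r v K) → AnalyticOnNhd ℂ θ (LoR c D r v K) →
      (∀ t w : ℂ, (t, w) ∈ LoR c D r v K → ‖θ (t, w) - t‖ ≤ D) →
      (∀ t : ℂ, (t, (0 : ℂ)) ∈ LoR c D r v K → A (t, 0) = F t) →
      (∀ t w : ℂ, (t, w) ∈ LoR c D r v K → A (t, -w) = A (t, w) ∧ P (t, -w) = P (t, w) ∧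
        θ (t, -w) = θ (t, w)) →
      (∀ t w : ℂ, (t + w / 2, w) ∈ LoR c D r v K → (t - w / 2, w) ∈ LoR c D r v K →
        ‖θ (t + w / 2, w) - θ (t - w / 2, w) - w‖ ≤ ε₁ * ‖w‖ ∧
        A (t + w / 2, w) + A (t - w / 2, w) = 2 * F (θ (t, w)) ∧
        P (t + w / 2, w) + P (t - w / 2, w) =
          2 * q (θ (t, w)) * cos ((A (t + w / 2, w) - A (t - w / 2, w)) / 2) ∧
        deriv F (θ (t, w)) * (P (t + w / 2, w) - P (t - w / 2, w)) =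
          2 * deriv q (θ (t, w)) * sin ((A (t + w / 2, w) - A (t - w / 2, w)) / 2)) →
      ∃ A' P' : ℂ × ℂ → ℂ, AnalyticOnNhd ℂ A' (UpR c D r v) ∧ AnalyticOnNhd ℂ P' (UpR c D r v) ∧
        ∀ u ∈ LoR c D r v K ∩ UpR c D r v, A' u = A u ∧ P' u = P u)
    (hCS : 1 ≤ CS)
    (N : NuS C₁ e₁ CL b y D r K σ) (N2 : Nu2 CL σ r l y D K K₁ ε₁)
    (N3 : Nu3 C₁ e₂ CS y D r K K₁ σ v ε₁) (W : Win α p y D r K) {x₀ : ℝ}
    (hx₀ : ∀ z ∈ ball ((x₀ : ℂ) + y * I) (K₁ * D),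
      ‖deriv F z‖ * r * K₁ ≤ ε₁ ∧ ‖Q z‖ * r * K₁ * D ≤ ε₁)
    {A2 P2 : ℂ × ℂ → ℂ} (T2 : Tu α p (y - 7 / 2 * D) (10 * r) A2 P2) :
    ∃ A' P' : ℂ × ℂ → ℂ, AnalyticOnNhd ℂ A' (UpR ((x₀ : ℂ) + y * I) D r v) ∧
      AnalyticOnNhd ℂ P' (UpR ((x₀ : ℂ) + y * I) D r v) ∧
      ∀ u ∈ LoT ((x₀ : ℂ) + y * I) D r v ∩ UpR ((x₀ : ℂ) + y * I) D r v,
        A' u = A2 u ∧ P' u = P2 u := by
  have hD := N.D0
  have hr := N.r0
  have h2 := N.h2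
  have hv := N3.v60
  have hvK := N3.vK
  have hσ := N.σ1
  set c : ℂ := (x₀ : ℂ) + y * I with hc
  have hcim : ∀ t : ℂ, (t - c).im = t.im - y := fun t => by simp [hc]
  have hball : ball c (K₁ * D) ⊆ Str b := by
    intro z hz
    have h5 := abs_im_le_norm (z - c)
    rw [hcim] at h5
    have h6 := abs_lt.1 (h5.trans_lt (mem_ball_iff_norm.1 hz))
    have h7 : K₁ * D ≤ K * D := mul_le_mul_of_nonneg_right (by linarith [N2.KK, N2.K1]) hD.le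
    have h8 := N.hb
    have h9 := N.h2
    have h10 : D * (K + 6) = K * D + 6 * D := by ring
    have h11 := B.b0
    show |z.im| < b
    exact abs_lt.2 ⟨by linarith [h6.1], by linarith [h6.2]⟩
  -- the first tube
  set ρ := r * Real.exp (v - 3) with hρ
  have hρ0 : 0 < ρ := by positivity
  have hτ : |3 - v| ≤ K + 4 := abs_le.2 ⟨by linarith, by linarith⟩
  have hρ' : r * Real.exp (-(3 - v)) = ρ := by rw [hρ]; congr 2; ring
  have hρm : ρ ≤ r * Real.exp (K + 4) :=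
    mul_le_mul_of_nonneg_left (Real.exp_le_exp.2 (by linarith)) hr.le
  have hρD : ρ ≤ D / 16 := hρm.trans N.h1d
  have hρ16 : ρ ≤ 1 / 16 := hρm.trans N.h1a
  have hρb : ρ ≤ b / 64 := hρm.trans N.h1b
  have hb0 : 0 < b := B.b0
  have hrρ : 10 * r ≤ ρ := by
    have h3 := N3.lab
    refine h3.trans (div_le_self hρ0.le ?_)
    exact one_le_mul_of_one_le_of_one_le hCS hσ
  set y1 := y - D * (v - 2) - D / 2 with hy1
  have hvD : D * (v + 2) ≤ D * (K + 6) := mul_le_mul_of_nonneg_left (by linarith) hD.le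
  have hvD' : D * (v - 2) + D / 2 ≤ D * (K + 6) := by nlinarith
  have hy1l : b / 2 ≤ y1 := by rw [hy1]; linarith
  obtain ⟨A1, P1, T1⟩ := W (3 - v) y1 hτ (by linarith) (by rw [hy1]; nlinarith)
  rw [hρ'] at T1
  obtain ⟨θ, Pθ, Lθ⟩ := hP T1 (hρm.trans N.h1e) (by linarith)
  have hlog : Real.log (1 / ρ) ≤ σ := by
    have e1 : Real.log (1 / ρ) = Real.log (1 / r) - (v - 3) := by
      rw [hρ, one_div, one_div, Real.log_inv, Real.log_inv, Real.log_mul hr.ne'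
        (Real.exp_pos _).ne', Real.log_exp]
      ring
    have := N.h4
    have hK := N.K0
    rw [e1]; linarith
  have hyσ : y1 ≤ σ := by
    have h3 := N.h3
    have hK := N.K0
    have : 0 ≤ D * (K + 4) := by positivity
    have h4 : 0 ≤ D * (v - 2) := mul_nonneg hD.le (by linarith)
    rw [hy1]; linarith
  have hSt := hS Pθ Lθ hρ0 (by linarith) (by linarith) hσ hlog hyσ N.C1
  -- the rectangle is inside
  have hLo : ∀ t w : ℂ, (t, w) ∈ LoR c D r v K₁ → |t.im| < y1 - 3 * ρ ∧ ‖w‖ < 10 * r := by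
    rintro t w ⟨h3, h4, h5, h6⟩
    have h4' : -(v + 2) * D < t.im - y := by rw [← hcim]; exact h4
    have h5' : t.im - y < -v * D := by rw [← hcim]; exact h5
    refine ⟨?_, h6⟩
    have h7 : 0 < t.im := by nlinarith
    rw [abs_of_pos h7, hy1]
    nlinarith
  have hsubT : LoR c D r v K₁ ⊆ Tb y1 ρ := fun u hu => by
    have h3 := hLo u.1 u.2 hu
    exact ⟨by linarith [h3.1], by linarith [h3.2]⟩
  have hsubP : LoR c D r v K₁ ⊆ Tb (y1 - ρ) ρ := fun u hu => by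
    have h3 := hLo u.1 u.2 hu
    exact ⟨by linarith [h3.1], by linarith [h3.2]⟩
  have hwlab : ∀ w : ℂ, ‖w‖ < 10 * r → ‖w‖ ≤ ρ / (CS * σ) := fun w hw => hw.le.trans N3.lab
  have hratio : ∀ w : ℂ, ‖w‖ < 10 * r → ‖w‖ / ρ ≤ 10 * Real.exp (-(v - 3)) := by
    intro w hw
    rw [div_le_iff₀ hρ0, hρ, Real.exp_neg]
    have h3 : 10 * (Real.exp (v - 3))⁻¹ * (r * Real.exp (v - 3)) = 10 * r := by
      have := (Real.exp_pos (v - 3)).ne'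
      field_simp
    rw [h3]; exact hw.le
  have hwρ : ∀ w : ℂ, 0 ≤ ‖w‖ / ρ := fun w => by positivity
  have hCS0 : 0 ≤ CS := by linarith
  have hK₁ : 1 ≤ v := by linarith
  obtain ⟨A', P', a1, a2, a3⟩ := hC (c := c) (D := D) (r := r) (v := v) (K := K₁) hD hr hK₁ N3.K1
    N2.rD hball hx₀ (A := A1) (P := P1) (θ := θ) (T1.aA.mono hsubT) (T1.aP.mono hsubT)
    (Pθ.an.mono hsubP)
    (fun t w h => by
      have h3 := hLo t w h
      have h4 := (hSt t w h3.1 (hwlab w h3.2)).2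
      refine h4.trans (le_trans ?_ N3.cl)
      have h5 : (‖w‖ / ρ) ^ 2 ≤ (10 * Real.exp (-(v - 3))) ^ 2 :=
        pow_le_pow_left₀ (hwρ w) (hratio w h3.2) 2
      have h6 : CS * σ ^ 2 * (‖w‖ / ρ) ^ 2 ≤ CS * σ ^ 2 * (10 * Real.exp (-(v - 3))) ^ 2 :=
        mul_le_mul_of_nonneg_left h5 (by positivity)
      have h7 : CS * C₁ * ‖w‖ ≤ CS * C₁ * (10 * r) :=
        mul_le_mul_of_nonneg_left h3.2.le (mul_nonneg hCS0 (by linarith [N.C1]))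
      linarith)
    (fun t h => (axC T1 E t (hsubT h).1 ((hsubT h).1.trans_le (le_b T1 E))).1)
    (fun t w h => ⟨(T1.ev E.ctx.ln t w (hsubT h)).1, (T1.ev E.ctx.ln t w (hsubT h)).2,
      Pθ.ev t w (hsubP h)⟩)
    (fun t w h h' => by
      have h3 := hLo _ _ h
      have h4 := hLo _ _ h'
      have h5 : |t.im| < y1 - 3 * ρ := by
        have e1 : t.im = ((t + w / 2).im + (t - w / 2).im) / 2 := by simp
        have h6 := abs_add_le (t + w / 2).im (t - w / 2).im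
        rw [e1, abs_div, abs_two]
        have := h3.1
        have := h4.1
        linarith
      have h7 : (t, w) ∈ Tb (y1 - ρ) ρ := ⟨by simp only; linarith, by simp only; linarith [h3.2]⟩
      refine ⟨?_, Pθ.sA t w h7, Pθ.sP t w h7, Pθ.dP t w h7⟩
      have h8 := (hSt t w h5 (hwlab w h3.2)).1
      refine h8.trans ?_
      have h9 : (‖w‖ / ρ) ^ 2 ≤ (10 * Real.exp (-(v - 3))) ^ 2 :=
        pow_le_pow_left₀ (hwρ w) (hratio w h3.2) 2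
      have h10 : CS * σ * (‖w‖ / ρ) ^ 2 ≤ ε₁ :=
        (mul_le_mul_of_nonneg_left h9 (by positivity)).trans N3.cs
      exact mul_le_mul_of_nonneg_right h10 (norm_nonneg _))
  -- agreement of the two tubes
  have hag := T2.agree T1
  have hLoT : LoT c D r v ⊆ Tb (y - 7 / 2 * D) (10 * r) := by
    rintro ⟨t, w⟩ ⟨h3, h4, h5, h6⟩
    have h4' : -(v + 2) * D < t.im - y := by rw [← hcim]; exact h4
    have h5' : t.im - y < -(7 / 2) * D := by rw [← hcim]; exact h5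
    refine ⟨?_, h6⟩
    show |t.im| < _
    rw [abs_of_pos (by nlinarith)]
    linarith
  have key : ∀ u ∈ LoR c D r v K₁ ∩ UpR c D r v, A1 u = A2 u ∧ P1 u = P2 u := by
    rintro u ⟨h3, h4⟩
    have h5 := hLo u.1 u.2 h3
    have hm : u ∈ Tb (min (y - 7 / 2 * D) y1) (min (10 * r) ρ) := by
      refine ⟨lt_min ?_ (by linarith [h5.1]), lt_min h5.2 (by linarith [h5.2])⟩
      have : y1 ≤ y - 7 / 2 * D := by rw [hy1]; nlinarith
      linarith [h5.1]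
    exact ⟨(hag.1 hm).symm, (hag.2 hm).symm⟩
  have hK100 : 100 ≤ K₁ := by linarith [N3.K1]
  have kA := agree_up hD hr hv hK100 (T2.aA.mono hLoT) a1 (fun u hu => by
    rw [(a3 u hu).1, (key u hu).1])
  have kP := agree_up hD hr hv hK100 (T2.aP.mono hLoT) a2 (fun u hu => by
    rw [(a3 u hu).2, (key u hu).2])
  exact ⟨A', P', a1, a2, fun u hu => ⟨kA u hu, kP u hu⟩⟩

/-- steps (7)-(9) -/
theorem ext_winC (E : CC.En κ Λ b H Φ r₀ e₀ α p J F q) (hF : RowF) (hTC : RowTC)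
    (hSp : ∀ {b₀ ρ : ℝ} {A P : ℂ × ℂ → ℂ},
      Tu α p b₀ ρ A P → ∀ {x' D a b₁ u ε : ℝ} {A₁ P₁ : ℂ × ℂ → ℂ}, 0 < u → 12 * u < D → u < ρ →
      u ≤ e₂ → 0 < ε → a < b₀ → b₀ < b₁ → b₁ ≤ b →
      AnalyticOnNhd ℂ A₁ ({t : ℂ | |t.re - x'| < D ∧ a < t.im ∧ t.im < b₁} ×ˢ ball (u : ℂ) ε) →
      AnalyticOnNhd ℂ P₁ ({t : ℂ | |t.re - x'| < D ∧ a < t.im ∧ t.im < b₁} ×ˢ ball (u : ℂ) ε) →
      (∀ t w : ℂ, |t.re - x'| < D → a < t.im → t.im < b₀ → w ∈ ball (u : ℂ) ε → ‖w‖ < ρ →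
        A₁ (t, w) = A (t, w) ∧ P₁ (t, w) = P (t, w)) → ∀ c < b₁, ∃ ε' > 0, ∃ A₂ P₂ : ℂ × ℂ → ℂ,
        AnalyticOnNhd ℂ A₂ ({t : ℂ | -b₀ < t.im ∧ t.im < c} ×ˢ ball (u : ℂ) ε') ∧
        AnalyticOnNhd ℂ P₂ ({t : ℂ | -b₀ < t.im ∧ t.im < c} ×ˢ ball (u : ℂ) ε') ∧
        ∀ t w : ℂ, |t.im| < b₀ → w ∈ ball (u : ℂ) ε' → ‖w‖ < ρ →
          A₂ (t, w) = A (t, w) ∧ P₂ (t, w) = P (t, w))
    {v y D r : ℝ} (hD : 0 < D) (hr : 0 < r) (hv : 60 ≤ v) (hy : (v + 2) * D < y)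
    (hrD : 72 * r < D) (hyD : y + 3 * D ≤ b) (hre : 6 * r ≤ e₂) {x₀ : ℝ}
    {A2 P2 : ℂ × ℂ → ℂ} (T2 : Tu α p (y - 7 / 2 * D) (10 * r) A2 P2)
    {A' P' : ℂ × ℂ → ℂ} (aA' : AnalyticOnNhd ℂ A' (UpR ((x₀ : ℂ) + y * I) D r v))
    (aP' : AnalyticOnNhd ℂ P' (UpR ((x₀ : ℂ) + y * I) D r v))
    (hag : ∀ u ∈ LoT ((x₀ : ℂ) + y * I) D r v ∩ UpR ((x₀ : ℂ) + y * I) D r v,
        A' u = A2 u ∧ P' u = P2 u) :
    Ext α p (y + D / 5) (2 * r) := by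
  have L := E.ctx.ln
  set c : ℂ := (x₀ : ℂ) + y * I with hc
  have hcim : ∀ t : ℂ, (t - c).im = t.im - y := fun t => by simp [hc]
  have hcre : ∀ t : ℂ, (t - c).re = t.re - x₀ := fun t => by simp [hc]
  set b₀ := y - 7 / 2 * D with hb₀
  set b₁ := y + 29 / 10 * D with hb₁
  set b₂ := y + D / 5 with hb₂
  have hb₀p : 0 < b₀ := T2.y0
  have hLoT : LoT c D r v ⊆ Tb b₀ (10 * r) := by
    rintro ⟨t, w⟩ ⟨h3, h4, h5, h6⟩
    have h4' : -(v + 2) * D < t.im - y := by rw [← hcim]; exact h4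
    have h5' : t.im - y < -(7 / 2) * D := by rw [← hcim]; exact h5
    refine ⟨?_, h6⟩
    show |t.im| < _
    rw [abs_of_pos (by nlinarith)]
    linarith
  -- positive labels
  have hpos : ∀ u : ℝ, 0 < u → u ≤ 6 * r → ∃ ε > 0, ∃ A₂ P₂ : ℂ × ℂ → ℂ,
      AnalyticOnNhd ℂ A₂ ({t : ℂ | -b₀ < t.im ∧ t.im < b₁} ×ˢ ball (u : ℂ) ε) ∧
      AnalyticOnNhd ℂ P₂ ({t : ℂ | -b₀ < t.im ∧ t.im < b₁} ×ˢ ball (u : ℂ) ε) ∧
      ∀ t w : ℂ, |t.im| < b₀ → w ∈ ball (u : ℂ) ε → ‖w‖ < 10 * r →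
        A₂ (t, w) = A2 (t, w) ∧ P₂ (t, w) = P2 (t, w) := by
    intro u hu0 hu6
    obtain ⟨ε₁, hε₁, GA, aGA, eGA⟩ := hF hD hr hv (T2.aA.mono hLoT) aA'
      (fun u hu => (hag u hu).1) hu0 hu6
    obtain ⟨ε₂, hε₂, GP, aGP, eGP⟩ := hF hD hr hv (T2.aP.mono hLoT) aP'
      (fun u hu => (hag u hu).2) hu0 hu6
    set ε := min ε₁ ε₂ with hε
    have hε0 : 0 < ε := lt_min hε₁ hε₂
    have hsub : ∀ ε', ε ≤ ε' →
        ({t : ℂ | |t.re - x₀| < D ∧ y - 7 * D < t.im ∧ t.im < y + 3 * D} ×ˢ ball (u : ℂ) ε) ⊆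
        ({t : ℂ | |(t - c).re| < D ∧ -7 * D < (t - c).im ∧ (t - c).im < 3 * D} ×ˢ
          ball (u : ℂ) ε') := by
      rintro ε' hε' ⟨t, w⟩ ⟨⟨h3, h4, h5⟩, h6⟩
      refine ⟨⟨?_, ?_, ?_⟩, ball_subset_ball hε' h6⟩
      · rw [hcre]; exact h3
      · rw [hcim]; simp only at h4; linarith
      · rw [hcim]; simp only at h5; linarith
    exact hSp T2 (x' := x₀) (D := D) (a := y - 7 * D) (b₁ := y + 3 * D) (u := u) (ε := ε)
      (A₁ := GA) (P₁ := GP) hu0 (by linarith) (by linarith) (by linarith) hε0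
      (by linarith) (by linarith) hyD (aGA.mono (hsub _ (min_le_left _ _)))
      (aGP.mono (hsub _ (min_le_right _ _)))
      (fun t w h3 h4 h5 h6 h7 => ⟨eGA t w (by rw [hcre]; exact h3) (by rw [hcim]; linarith)
        (by rw [hcim]; linarith) (ball_subset_ball (min_le_left _ _) h6),
        eGP t w (by rw [hcre]; exact h3) (by rw [hcim]; linarith)
        (by rw [hcim]; linarith) (ball_subset_ball (min_le_right _ _) h6)⟩) b₁ (by linarith)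
  -- all real labels
  have hall : ∀ u : ℝ, |u| ≤ 6 * r → ∃ ε > 0, ∃ A₂ P₂ : ℂ × ℂ → ℂ,
      AnalyticOnNhd ℂ A₂ ({t : ℂ | -b₀ < t.im ∧ t.im < b₁} ×ˢ ball (u : ℂ) ε) ∧
      AnalyticOnNhd ℂ P₂ ({t : ℂ | -b₀ < t.im ∧ t.im < b₁} ×ˢ ball (u : ℂ) ε) ∧
      ∀ t w : ℂ, |t.im| < b₀ → w ∈ ball (u : ℂ) ε → ‖w‖ < 10 * r →
        A₂ (t, w) = A2 (t, w) ∧ P₂ (t, w) = P2 (t, w) := by
    intro u hu
    rcases lt_trichotomy u 0 with h | h | h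
    · obtain ⟨ε, hε, A₂, P₂, h3, h4, h5⟩ := hpos (-u) (by linarith)
        (by rw [abs_of_neg h] at hu; exact hu)
      have hneg : ∀ {f : ℂ × ℂ → ℂ},
          AnalyticOnNhd ℂ f ({t : ℂ | -b₀ < t.im ∧ t.im < b₁} ×ˢ ball ((-u : ℝ) : ℂ) ε) →
          AnalyticOnNhd ℂ (fun x : ℂ × ℂ => f (x.1, -x.2))
            ({t : ℂ | -b₀ < t.im ∧ t.im < b₁} ×ˢ ball (u : ℂ) ε) := by
        intro f hf x hx
        have hm : (x.1, -x.2) ∈ ({t : ℂ | -b₀ < t.im ∧ t.im < b₁} ×ˢ ball ((-u : ℝ) : ℂ) ε) := by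
          refine ⟨hx.1, ?_⟩
          have h6 := hx.2
          rw [mem_ball_iff_norm] at h6 ⊢
          have e : -x.2 - ((-u : ℝ) : ℂ) = -(x.2 - u) := by push_cast; ring
          simp only [e, norm_neg]
          exact h6
        exact AnalyticAt.comp (g := f) (f := fun x : ℂ × ℂ => (x.1, -x.2)) (hf _ hm)
          (analyticAt_fst.prod analyticAt_snd.neg)
      refine ⟨ε, hε, _, _, hneg h3, hneg h4, fun t w h6 h7 h8 => ?_⟩
      have hm : -w ∈ ball ((-u : ℝ) : ℂ) ε := by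
        rw [mem_ball_iff_norm] at h7 ⊢
        have e : -w - ((-u : ℝ) : ℂ) = -(w - u) := by push_cast; ring
        rw [e, norm_neg]; exact h7
      have h9 := h5 t (-w) h6 hm (by rwa [norm_neg])
      have h10 := T2.ev L t w ⟨h6, h8⟩
      exact ⟨h9.1.trans h10.1, h9.2.trans h10.2⟩
    · subst h
      obtain ⟨ρ', hρ', A0, P0, T0⟩ := y0C E (y := b₁) (by linarith) (by linarith)
      have hsub : ({t : ℂ | -b₀ < t.im ∧ t.im < b₁} ×ˢ ball (((0 : ℝ) : ℂ)) (min ρ' (10 * r))) ⊆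
          Tb b₁ ρ' := by
        rintro ⟨t, w⟩ ⟨⟨h3, h4⟩, h5⟩
        rw [ofReal_zero, mem_ball_zero_iff] at h5
        exact ⟨abs_lt.2 ⟨by simp only at h3 ⊢; linarith, h4⟩, h5.trans_le (min_le_left _ _)⟩
      refine ⟨min ρ' (10 * r), lt_min hρ' (by positivity), A0, P0, T0.aA.mono hsub,
        T0.aP.mono hsub, fun t w h6 h7 h8 => ?_⟩
      rw [ofReal_zero, mem_ball_zero_iff] at h7
      have hm : (t, w) ∈ Tb (min b₁ b₀) (min ρ' (10 * r)) := ⟨lt_min (by simp only; linarith) h6, h7⟩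
      have h9 := T0.agree T2
      exact ⟨h9.1 hm, h9.2 hm⟩
    · rw [abs_of_pos h] at hu
      exact hpos u h hu
  -- two constants
  have hb : b₂ < 59 / 100 * b₁ + 41 / 100 * b₀ := by rw [hb₀, hb₁, hb₂]; linarith
  have hsubTb : ({t : ℂ | -b₀ < t.im ∧ t.im < b₀} ×ˢ ball (0 : ℂ) (10 * r)) ⊆ Tb b₀ (10 * r) := by
    rintro ⟨t, w⟩ ⟨⟨h3, h4⟩, h5⟩
    exact ⟨abs_lt.2 ⟨h3, h4⟩, by simpa using h5⟩
  have an1 : AnalyticOnNhd ℂ (fun x : ℂ × ℂ => 2 * Real.pi * x.1) univ := fun x _ =>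
    analyticAt_const.mul analyticAt_fst
  obtain ⟨GA, aGA, eGA⟩ := hTC (a := b₀) (b₀ := b₀) (b₁ := b₁) (b₂ := b₂) (R := 6 * r)
    (R' := 10 * r) (f := fun x => A2 x - 2 * Real.pi * x.1) hb₀p hb₀p (by linarith)
    (by positivity) (by linarith) hb ((T2.aA.mono hsubTb).sub (an1.mono (subset_univ _)))
    (fun t w h3 h4 h5 => by
      have := (T2.per L t w ⟨abs_lt.2 ⟨h3, h4⟩, h5⟩).1
      simp only [this]
      ring)
    (fun u hu => by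
      obtain ⟨ε, hε, A₂, P₂, h3, h4, h5⟩ := hall u hu
      refine ⟨ε, hε, fun x => A₂ x - 2 * Real.pi * x.1, h3.sub (an1.mono (subset_univ _)),
        fun t w h6 h7 h8 h9 => ?_⟩
      simp only [(h5 t w (abs_lt.2 ⟨h6, h7⟩) h8 h9).1])
  obtain ⟨GP, aGP, eGP⟩ := hTC (a := b₀) (b₀ := b₀) (b₁ := b₁) (b₂ := b₂) (R := 6 * r)
    (R' := 10 * r) (f := P2) hb₀p hb₀p (by linarith)
    (by positivity) (by linarith) hb (T2.aP.mono hsubTb)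
    (fun t w h3 h4 h5 => (T2.per L t w ⟨abs_lt.2 ⟨h3, h4⟩, h5⟩).2)
    (fun u hu => by
      obtain ⟨ε, hε, A₂, P₂, h3, h4, h5⟩ := hall u hu
      exact ⟨ε, hε, P₂, h4, fun t w h6 h7 h8 h9 => (h5 t w (abs_lt.2 ⟨h6, h7⟩) h8 h9).2⟩)
  have e3 : 6 * r / 3 = 2 * r := by ring
  rw [e3] at aGA eGA aGP eGP
  have hmin : min b₀ b₂ = b₀ := min_eq_left (by rw [hb₀, hb₂]; linarith)
  rw [hmin] at eGA eGP
  exact ext_of_sym L T2 (b := b₂) (ρ := 2 * r) (G₁ := fun x => GA x + 2 * Real.pi * x.1) (G₂ := GP)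
    (by rw [hb₀, hb₂]; linarith) (by positivity) (by linarith)
    (aGA.add (an1.mono (subset_univ _))) aGP
    (fun t w h3 h4 h5 => by
      simp only [eGA t w h3 h4 h5]
      ring)
    (fun t w h3 h4 h5 => eGP t w h3 h4 h5)

end

end Vale.Agent.P097.GW
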